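import Mathlib

/-!
P159 T1, D.ARM.2: the explicit profiles and the two integrals of the arm estimate, in the
log-polar plane `(x, y)`, `y ∈ (0, 2π)`, normalised to `V / Y = 1`.
-/

open MeasureTheory Set

namespace Vale.Agent.P159.T1.H395

noncomputable section

/-- the radial profile: `0` on `r ≤ 4d`, `1` on `8d ≤ r ≤ 1/4`, `0` on `r ≥ 1/2` -/
def gd (d r : ℝ) : ℝ :=
  Real.smoothTransition ((r - 4 * d) / (4 * d)) * (1 - Real.smoothTransition (4 * r - 1))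

/-- primitive of `g(r)/r` -/
def Pd (d r : ℝ) : ℝ := ∫ t in (0:ℝ)..r, gd d t / t

/-- slope of the smoothed tent -/
def ud' (d y : ℝ) : ℝ :=
  1 / d * (Real.smoothTransition ((y - d ^ 2) / d ^ 2) *
    (1 - Real.smoothTransition ((y - d) / d ^ 2)))

/-- the smoothed tent -/
def ud (d y : ℝ) : ℝ := ∫ t in (0:ℝ)..y, ud' d t

/-- the coefficient (`V / Y = 1`) -/
def cd (d y : ℝ) : ℝ := if y < d then 1 / d else -(1 / (2 * Real.pi - d))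

/-- distance from the centre of the cell -/
def rr (w : ℝ × ℝ) : ℝ := Real.sqrt (w.1 ^ 2 + w.2 ^ 2)

/-- the strip of the log-polar plane -/
def strp : Set (ℝ × ℝ) := univ ×ˢ Ioo 0 (2 * Real.pi)

/-- integrand of `J₁`: `2 c(y) (-sgn x) g(|x|) ψ_x + |∇ψ|²`, `ψ = (2/π) P(|w|)`,
`ψ_x = (2/π) g(r) x / r²` -/
def j1 (d : ℝ) (w : ℝ × ℝ) : ℝ :=
  2 * cd d w.2 * (-(SignType.sign w.1 : ℝ)) * gd d |w.1| * (2 / Real.pi * (gd d (rr w) * w.1 / rr w ^ 2))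
    + (2 / Real.pi * (gd d (rr w) / rr w)) ^ 2

/-- `φ = g(|w|) u(y)` : the partial derivatives -/
def phix (d : ℝ) (w : ℝ × ℝ) : ℝ := deriv (gd d) (rr w) * (w.1 / rr w) * ud d w.2

/-- the second partial derivative -/
def phiy (d : ℝ) (w : ℝ × ℝ) : ℝ :=
  gd d (rr w) * ud' d w.2 + deriv (gd d) (rr w) * (w.2 / rr w) * ud d w.2

/-- integrand of `J₂` -/
def j2 (d : ℝ) (w : ℝ × ℝ) : ℝ := (cd d w.2 * gd d |w.1| - phiy d w) ^ 2 + phix d w ^ 2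

/-- ARM.2 a -/
def StmtJ1 : Prop :=
  ∃ C d0 : ℝ, 0 < d0 ∧ ∀ d, 0 < d → d ≤ d0 →
    ∫ w in strp, j1 d w ≤ -(4 / Real.pi) * Real.log (1 / d) + C

/-- ARM.2 b -/
def StmtJ2 : Prop :=
  ∃ C d0 : ℝ, 0 < d0 ∧ ∀ d, 0 < d → d ≤ d0 → ∫ w in strp, j2 d w ≤ C

end

end Vale.Agent.P159.T1.H395
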