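import Vale.Agent.P159.R2.H395.LogPol
import Vale.Agent.P159.T1.H395.ArmInt

/-!
P159 T1, D.ARM.2: change of variables to the log-polar plane.
-/

open MeasureTheory Set Complex Vale.Agent.P159.R2.H395

namespace Vale.Agent.P159.T1.H395

noncomputable section

/-- the log-polar coordinate of a point of the plane -/
def lwR (z : ℝ × ℝ) : ℝ × ℝ := ((lw ⟨z.1, z.2⟩).re, (lw ⟨z.1, z.2⟩).im)

lemma image_lw : lw '' slitPlane = {w : ℂ | 0 < w.im ∧ w.im < 2 * Real.pi} := by
  ext w
  constructor
  · rintro ⟨z, hz, rfl⟩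
    have h1 := Complex.neg_pi_lt_arg z
    have h2 := lt_of_le_of_ne (Complex.arg_le_pi z) (mem_slitPlane_iff_arg.1 hz).1
    have e : (lw z).im = z.arg + Real.pi := by simp [lw, Complex.log_im]
    rw [Set.mem_ofPred_eq, e]
    constructor <;> linarith
  · rintro ⟨h1, h2⟩
    set v : ℂ := w - Real.pi * I with hv
    have him : v.im = w.im - Real.pi := by simp [hv]
    have hlog : Complex.log (Complex.exp v) = v :=
      Complex.log_exp (by rw [him]; linarith) (by rw [him]; linarith)
    refine ⟨Complex.exp v, ?_, ?_⟩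
    · rw [mem_slitPlane_iff_arg]
      refine ⟨?_, Complex.exp_ne_zero _⟩
      rw [← Complex.log_im, hlog, him]
      intro h
      linarith
    · rw [lw, hlog, hv]
      ring

/-- integrals over the plane and over `ℂ` -/
lemma setIntegral_prod_complex (S : Set (ℝ × ℝ)) (F : ℝ × ℝ → ℝ) :
    ∫ z in S, F z = ∫ z in {z : ℂ | (z.re, z.im) ∈ S}, F (z.re, z.im) :=
  (Complex.volume_preserving_equiv_real_prod.setIntegral_preimage_emb
    Complex.measurableEquivRealProd.measurableEmbedding F S).symm

/-- **change of variables**: no integrability hypothesis -/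
theorem integral_lwR (H : ℝ × ℝ → ℝ) :
    ∫ z : ℝ × ℝ, (z.1 ^ 2 + z.2 ^ 2)⁻¹ * H (lwR z) = ∫ w in strp, H w := by
  have h1 : ∫ z : ℝ × ℝ, (z.1 ^ 2 + z.2 ^ 2)⁻¹ * H (lwR z)
      = ∫ z in polarCoord.source, (z.1 ^ 2 + z.2 ^ 2)⁻¹ * H (lwR z) := by
    rw [← setIntegral_univ]
    exact (setIntegral_congr_set polarCoord_source_ae_eq_univ).symm
  rw [h1, setIntegral_prod_complex, setIntegral_prod_complex strp]
  have hs : {z : ℂ | (z.re, z.im) ∈ polarCoord.source} = slitPlane := by
    ext z
    simp only [Set.mem_ofPred_eq, polarCoord_source, mem_union, mem_slitPlane_iff]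
  have hw : {w : ℂ | (w.re, w.im) ∈ strp} = lw '' slitPlane := by
    rw [image_lw]
    ext w
    simp [strp]
  rw [hs, hw, integral_lw isOpen_slitPlane.measurableSet subset_rfl (fun w => H (w.re, w.im))]
  refine setIntegral_congr_fun isOpen_slitPlane.measurableSet fun z _ => ?_
  simp only [lwR]
  rw [norm_inv, inv_pow, ← normSq_eq_norm_sq, normSq_apply]
  ring_nf

end

end Vale.Agent.P159.T1.H395
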