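import Vale.Agent.P159.T1.H395.J1b

/-!
P159 T1, D.ARM.2: proof of `StmtJ1`.
-/

open MeasureTheory Set

namespace Vale.Agent.P159.T1.H395

noncomputable section

variable {d : ℝ}

/-- the box which contains the support -/
def bx : Set (ℝ × ℝ) := Icc (-1, -1) (1, 1)

lemma bx_finite : volume bx ≠ ⊤ := (isCompact_Icc (a := ((-1:ℝ), (-1:ℝ))) (b := (1, 1))).measure_ne_top

lemma mem_bx {w : ℝ × ℝ} (h : rr w ≤ 1 / 2) : w ∈ bx := by
  have h1 := abs_le.1 ((abs_fst_le w).trans h)
  have h2 := abs_le.1 ((snd_le w).trans h)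
  refine ⟨⟨?_, ?_⟩, ⟨?_, ?_⟩⟩
  · show (-1:ℝ) ≤ w.1
    linarith
  · show (-1:ℝ) ≤ w.2
    linarith
  · show w.1 ≤ (1:ℝ)
    linarith
  · show w.2 ≤ (1:ℝ)
    linarith

lemma measurableSet_HA (d : ℝ) : MeasurableSet (HA d) := by
  have h : IsOpen (HA d) :=
    (isOpen_lt continuous_const continuous_snd).inter
      ((isOpen_lt continuous_const continuous_rr).inter (isOpen_lt continuous_rr continuous_const))
  exact h.measurableSet

lemma measurableSet_RA (d : ℝ) : MeasurableSet (RA d) := by
  have h : IsClosed {x : ℝ | 8 * d ≤ |x| ∧ |x| ≤ 1 / 8} :=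
    (isClosed_le continuous_const continuous_abs).inter
      (isClosed_le continuous_abs continuous_const)
  exact h.measurableSet.prod measurableSet_Ioo

lemma integrable_HA (hd : 0 < d) : Integrable
    ((HA d).indicator (fun w => 4 / Real.pi ^ 2 * (1 / rr w ^ 2 + 1 / rr w))) := by
  rw [integrable_indicator_iff (measurableSet_HA d)]
  have hm := continuous_rr.measurable
  have hsub : HA d ⊆ bx := fun w hw => mem_bx hw.2.2.le
  refine Measure.integrableOn_of_bounded (M := 4 / Real.pi ^ 2 * (1 / (4 * d) ^ 2 + 1 / (4 * d)))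
    (ne_top_of_le_ne_top bx_finite (measure_mono hsub)) ?_ ?_
  · exact (Measurable.aestronglyMeasurable (by fun_prop))
  · refine (ae_restrict_iff' (measurableSet_HA d)).2 (Filter.Eventually.of_forall fun w hw => ?_)
    have h0 : 0 < rr w := by linarith [hw.2.1]
    rw [Real.norm_of_nonneg (by positivity)]
    have := hw.2.1.le
    gcongr

lemma integrable_RA (hd : 0 < d) : Integrable
    ((RA d).indicator (fun w => 4 / Real.pi * (1 / d * (|w.1| / (w.1 ^ 2 + d ^ 2))))) := by
  rw [integrable_indicator_iff (measurableSet_RA d)]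
  have hsub : RA d ⊆ Icc (-(1/8), 0) (1/8, d) := fun w hw => by
    have h1 := abs_le.1 hw.1.2
    exact ⟨⟨h1.1, hw.2.1.le⟩, ⟨h1.2, hw.2.2.le⟩⟩
  refine IntegrableOn.mono_set (ContinuousOn.integrableOn_compact isCompact_Icc ?_) hsub
  apply Continuous.continuousOn
  refine continuous_const.mul (continuous_const.mul (Continuous.div (by fun_prop) (by fun_prop) ?_))
  intro w
  positivity

lemma measurable_cd (d : ℝ) : Measurable (cd d) :=
  Measurable.ite measurableSet_Iio measurable_const measurable_const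

lemma integrable_j1 (hd : 0 < d) (hd1 : d ≤ 1 / 8) : IntegrableOn (j1 d) strp := by
  have hms : MeasurableSet strp := MeasurableSet.univ.prod measurableSet_Ioo
  have hpi := Real.pi_gt_three
  have hm := continuous_rr.measurable
  have hg := (continuous_gd d).measurable
  have hc := measurable_cd d
  have hmeas : Measurable (j1 d) := by
    have e : j1 d = fun w => -(4 / Real.pi) * (cd d w.2 * (gd d |w.1| *
      (gd d (rr w) * |w.1| / rr w ^ 2))) + 4 / Real.pi ^ 2 * (gd d (rr w) ^ 2 / rr w ^ 2) :=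
      funext (j1_eq d)
    rw [e]
    have h1 : Measurable fun w : ℝ × ℝ => |w.1| := (continuous_abs.comp continuous_fst).measurable
    have h2 : Measurable fun w : ℝ × ℝ => gd d |w.1| := hg.comp h1
    have h3 : Measurable fun w : ℝ × ℝ => gd d (rr w) := hg.comp hm
    have h4 : Measurable fun w : ℝ × ℝ => cd d w.2 := hc.comp measurable_snd
    fun_prop
  -- bound
  set K : ℝ := 4 / Real.pi * (1 / d * (1 * (1 * (1 / (4 * d))))) +
    4 / Real.pi ^ 2 * (1 / (4 * d) ^ 2) with hK
  have hK0 : 0 ≤ K := by positivity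
  have hb : ∀ w : ℝ × ℝ, ‖j1 d w‖ ≤ bx.indicator (fun _ => K) w := by
    intro w
    by_cases hz : gd d (rr w) = 0
    · rw [j1_eq, hz]
      simp only [zero_mul, zero_div, mul_zero, ne_eq, OfNat.ofNat_ne_zero, not_false_eq_true,
        zero_pow, add_zero, norm_zero]
      exact indicator_nonneg (fun _ _ => hK0) w
    · have h4 : 4 * d < rr w := by
        by_contra hc'
        push Not at hc'
        exact hz (gd_eq_zero hd (Or.inl hc'))
      have h12 : rr w < 1 / 2 := by
        by_contra hc'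
        push Not at hc'
        exact hz (gd_eq_zero hd (Or.inr hc'))
      have hr0 : 0 < rr w := by linarith
      rw [indicator_of_mem (mem_bx h12.le), j1_eq]
      have hcd : |cd d w.2| ≤ 1 / d := by
        unfold cd
        split_ifs
        · rw [abs_of_pos (by positivity)]
        · have : 0 < 2 * Real.pi - d := by linarith
          rw [abs_neg, abs_of_pos (by positivity)]
          apply one_div_le_one_div_of_le hd
          linarith
      have hx := abs_fst_le w
      have h5 : gd d (rr w) * |w.1| / rr w ^ 2 ≤ 1 * (1 / (4 * d)) := by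
        calc gd d (rr w) * |w.1| / rr w ^ 2 ≤ 1 * rr w / rr w ^ 2 := by
              gcongr
              exact gd_le_one _ _
          _ = 1 * (1 / rr w) := by field_simp
          _ ≤ 1 * (1 / (4 * d)) := by gcongr
      have h6 : 0 ≤ gd d (rr w) * |w.1| / rr w ^ 2 := by
        have := gd_nonneg d (rr w)
        positivity
      refine (norm_add_le _ _).trans (add_le_add ?_ ?_)
      · rw [norm_mul, norm_neg, norm_mul, norm_mul, Real.norm_eq_abs (cd d w.2),
          Real.norm_of_nonneg (gd_nonneg d |w.1|), Real.norm_of_nonneg h6,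
          Real.norm_of_nonneg (by positivity : 0 ≤ 4 / Real.pi)]
        have := gd_nonneg d |w.1|
        have := gd_le_one d |w.1|
        gcongr
      · rw [Real.norm_of_nonneg (by positivity)]
        have h7 : gd d (rr w) ^ 2 ≤ 1 := pow_le_one₀ (gd_nonneg _ _) (gd_le_one _ _)
        gcongr
  have hbi : Integrable (bx.indicator fun _ => K) := by
    rw [integrable_indicator_iff (show MeasurableSet bx from measurableSet_Icc)]
    exact integrableOn_const bx_finite
  exact (hbi.mono' hmeas.aestronglyMeasurable (Filter.Eventually.of_forall hb)).integrableOn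

lemma integral_one_side {a b c : ℝ} (hd : 0 < d) :
    ∫ x in a..b, c * x / (x ^ 2 + d ^ 2) = c / 2 * (Real.log (b ^ 2 + d ^ 2) -
      Real.log (a ^ 2 + d ^ 2)) := by
  have h : ∀ x ∈ uIcc a b, HasDerivAt (fun x => c / 2 * Real.log (x ^ 2 + d ^ 2))
      (c * x / (x ^ 2 + d ^ 2)) x := by
    intro x _
    have hp : x ^ 2 + d ^ 2 ≠ 0 := by positivity
    have h1 : HasDerivAt (fun x : ℝ => x ^ 2 + d ^ 2) (2 * x) x := by
      simpa using (hasDerivAt_pow 2 x).add_const (d ^ 2)
    have h2 := (h1.log hp).const_mul (c / 2)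
    refine h2.congr_deriv ?_
    field_simp
  rw [intervalIntegral.integral_eq_sub_of_hasDerivAt h]
  · ring
  · apply Continuous.intervalIntegrable
    exact Continuous.div (by fun_prop) (by fun_prop) fun x => by positivity

lemma integral_RA (hd : 0 < d) (hd1 : d ≤ 1 / 64) :
    8 / Real.pi * Real.log (1 / d) - 4 / Real.pi * Real.log 4160 ≤
    ∫ w : ℝ × ℝ, (RA d).indicator (fun w => 4 / Real.pi * (1 / d * (|w.1| / (w.1 ^ 2 + d ^ 2)))) w := by
  rw [integral_indicator (measurableSet_RA d)]
  have h1 : ∫ w in RA d, 4 / Real.pi * (1 / d * (|w.1| / (w.1 ^ 2 + d ^ 2)))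
      = (∫ x in {x : ℝ | 8 * d ≤ |x| ∧ |x| ≤ 1 / 8}, |x| / (x ^ 2 + d ^ 2)) *
        ∫ _ in Ioo (0:ℝ) d, 4 / Real.pi * (1 / d) := by
    rw [← setIntegral_prod_mul (fun x : ℝ => |x| / (x ^ 2 + d ^ 2))
      (fun _ => 4 / Real.pi * (1 / d)), ← Measure.volume_eq_prod]
    apply setIntegral_congr_fun (measurableSet_RA d)
    intro w _
    ring
  have h2 : ∫ _ in Ioo (0:ℝ) d, 4 / Real.pi * (1 / d) = 4 / Real.pi := by
    rw [setIntegral_const, Real.volume_real_Ioo_of_le hd.le, sub_zero, smul_eq_mul]
    field_simp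
  have hset : {x : ℝ | 8 * d ≤ |x| ∧ |x| ≤ 1 / 8} = Icc (8 * d) (1 / 8) ∪ Icc (-(1 / 8)) (-(8 * d)) := by
    ext x
    simp only [Set.mem_ofPred_eq, mem_union, mem_Icc, le_abs, abs_le]
    constructor
    · rintro ⟨h | h, h3, h4⟩
      · exact Or.inl ⟨h, h4⟩
      · exact Or.inr ⟨h3, by linarith⟩
    · rintro (⟨h3, h4⟩ | ⟨h3, h4⟩)
      · exact ⟨Or.inl h3, by linarith, h4⟩
      · exact ⟨Or.inr (by linarith), h3, by linarith⟩
  have hcont : Continuous fun x : ℝ => |x| / (x ^ 2 + d ^ 2) :=
    Continuous.div (by fun_prop) (by fun_prop) fun x => by positivity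
  have h3 : ∫ x in {x : ℝ | 8 * d ≤ |x| ∧ |x| ≤ 1 / 8}, |x| / (x ^ 2 + d ^ 2)
      = Real.log (1 / 64 + d ^ 2) - Real.log (65 * d ^ 2) := by
    rw [hset, setIntegral_union ?_ measurableSet_Icc
      (hcont.continuousOn.integrableOn_Icc) (hcont.continuousOn.integrableOn_Icc)]
    · rw [integral_Icc_eq_integral_Ioc, integral_Icc_eq_integral_Ioc,
        ← intervalIntegral.integral_of_le (by linarith), ← intervalIntegral.integral_of_le (by linarith)]
      have k1 : ∫ x in (8 * d)..(1 / 8), |x| / (x ^ 2 + d ^ 2)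
          = ∫ x in (8 * d)..(1 / 8), 1 * x / (x ^ 2 + d ^ 2) := by
        apply intervalIntegral.integral_congr
        intro x hx
        rw [uIcc_of_le (by linarith)] at hx
        have : 0 ≤ x := by linarith [hx.1]
        simp only [abs_of_nonneg this, one_mul]
      have k2 : ∫ x in (-(1 / 8))..(-(8 * d)), |x| / (x ^ 2 + d ^ 2)
          = ∫ x in (-(1 / 8))..(-(8 * d)), (-1) * x / (x ^ 2 + d ^ 2) := by
        apply intervalIntegral.integral_congr
        intro x hx
        rw [uIcc_of_le (by linarith)] at hx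
        have : x ≤ 0 := by linarith [hx.2]
        simp only [abs_of_nonpos this, neg_one_mul]
      rw [k1, k2, integral_one_side hd,
        integral_one_side hd]
      have e1 : (1 / 8 : ℝ) ^ 2 + d ^ 2 = 1 / 64 + d ^ 2 := by ring
      have e2 : (8 * d) ^ 2 + d ^ 2 = 65 * d ^ 2 := by ring
      have e3 : (-(8 * d)) ^ 2 + d ^ 2 = 65 * d ^ 2 := by ring
      have e4 : (-(1 / 8) : ℝ) ^ 2 + d ^ 2 = 1 / 64 + d ^ 2 := by ring
      rw [e1, e2, e3, e4]
      ring
    · rw [Set.disjoint_left]
      intro x hx hx'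
      linarith [hx.1, hx'.2]
  rw [h1, h2, h3]
  have h4 : Real.log (1 / 64) ≤ Real.log (1 / 64 + d ^ 2) :=
    Real.log_le_log (by norm_num) (by nlinarith)
  have h5 : Real.log (65 * d ^ 2) = Real.log 65 - 2 * Real.log (1 / d) := by
    rw [Real.log_mul (by norm_num) (by positivity), Real.log_pow, one_div, Real.log_inv]
    push_cast
    ring
  have h6 : Real.log 4160 = Real.log 65 - Real.log (1 / 64) := by
    rw [← Real.log_div (by norm_num) (by norm_num)]
    norm_num
  have hpi := Real.pi_pos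
  rw [h5]
  have h7 : 2 * Real.log (1 / d) - Real.log 4160 ≤
      Real.log (1 / 64 + d ^ 2) - (Real.log 65 - 2 * Real.log (1 / d)) := by rw [h6]; linarith
  calc _ = (2 * Real.log (1 / d) - Real.log 4160) * (4 / Real.pi) := by ring
    _ ≤ _ := by gcongr

theorem stmtJ1 : StmtJ1 := by
  refine ⟨2 / Real.pi + 4 / Real.pi * Real.log 4160, 1 / 64, by norm_num, fun d hd hd1 => ?_⟩
  have hd1' : d ≤ 1 / 8 := by linarith
  have hms : MeasurableSet strp := MeasurableSet.univ.prod measurableSet_Ioo
  have hpi := Real.pi_gt_three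
  have hub : Integrable (ub d) := (integrable_HA hd).sub (integrable_RA hd)
  have hsupp : ∀ w, w ∉ strp → ub d w = 0 := by
    intro w hw
    have h1 : w ∉ HA d := fun h => hw ⟨mem_univ _, h.1, by
      have := (le_abs_self w.2).trans (snd_le w)
      linarith [h.2.2]⟩
    have h2 : w ∉ RA d := fun h => hw ⟨mem_univ _, h.2.1, by linarith [h.2.2]⟩
    unfold ub
    rw [indicator_of_notMem h1, indicator_of_notMem h2, sub_zero]
  calc ∫ w in strp, j1 d w ≤ ∫ w in strp, ub d w :=
        setIntegral_mono_on (integrable_j1 hd hd1') hub.integrableOn hms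
          fun w hw => j1_le_ub hd hd1' hw
    _ = ∫ w, ub d w := setIntegral_eq_integral_of_forall_compl_eq_zero hsupp
    _ = (∫ w : ℝ × ℝ, (HA d).indicator (fun w => 4 / Real.pi ^ 2 * (1 / rr w ^ 2 + 1 / rr w)) w) -
          ∫ w : ℝ × ℝ, (RA d).indicator
            (fun w => 4 / Real.pi * (1 / d * (|w.1| / (w.1 ^ 2 + d ^ 2)))) w :=
        integral_sub (integrable_HA hd) (integrable_RA hd)
    _ ≤ (4 / Real.pi * Real.log (1 / d) + 2 / Real.pi) -
          (8 / Real.pi * Real.log (1 / d) - 4 / Real.pi * Real.log 4160) :=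
        sub_le_sub (integral_HA hd hd1') (integral_RA hd hd1)
    _ = _ := by ring

end

end Vale.Agent.P159.T1.H395
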