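import Vale.Agent.P159.T1.H664.ArmDefs
import Vale.Agent.P159.T1.H395.J1c
import Vale.Agent.P159.T1.H395.Cov

/-!
P159 T1, D.ARM.2: `StmtPull` and `StmtJ1` in the form of `H664/ArmDefs.lean`.
-/

open MeasureTheory Set

namespace Vale.Agent.P159.T1.H395

noncomputable section

lemma strp_eq : H664.strp = strp := by
  ext w
  simp [H664.strp, strp]

lemma lwR_eq (z : ℝ × ℝ) : lwR z = H664.lw z := by
  unfold lwR H664.lw Vale.Agent.P159.R2.H395.lw
  refine Prod.ext ?_ ?_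
  · simp only [Complex.add_re, Complex.mul_re, Complex.ofReal_re, Complex.I_re, mul_zero,
      Complex.ofReal_im, Complex.I_im, mul_one, sub_self, add_zero, Complex.log_re]
    congr 1
    rw [Complex.norm_eq_sqrt_sq_add_sq]
  · simp [Complex.log_im]

theorem stmtPull : H664.StmtPull := by
  intro H
  rw [strp_eq, ← integral_lwR]
  congr 1
  funext z
  rw [lwR_eq]
  ring

lemma H1_eq {d : ℝ} (hd : 0 < d) (w : ℝ × ℝ) : H664.H1 1 d w = j1 d w := by
  have hg : ∀ x, H664.gp d x = gd d x := fun _ => rfl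
  have hr : H664.rw w = rr w := rfl
  have hc : H664.cW 1 d w.2 = cd d w.2 := rfl
  have hneg : ∀ x, x ≤ 0 → gd d x = 0 := fun x hx => gd_eq_zero hd (Or.inl (by linarith))
  have h1 : gd d (-w.1) - gd d w.1 = -(SignType.sign w.1 : ℝ) * gd d |w.1| := by
    rcases lt_trichotomy w.1 0 with h | h | h
    · rw [sign_neg h, abs_of_neg h, hneg w.1 h.le]
      simp
    · rw [h]
      simp
    · rw [sign_pos h, abs_of_pos h, hneg (-w.1) (by linarith)]
      simp
  have h2 : (gd d (rr w) * w.1 / rr w ^ 2) ^ 2 + (gd d (rr w) * w.2 / rr w ^ 2) ^ 2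
      = (gd d (rr w) / rr w) ^ 2 := by
    by_cases h0 : rr w = 0
    · rw [h0]; simp
    · have h3 := rr_sq w
      have h4 : (gd d (rr w) * w.1 / rr w ^ 2) ^ 2 + (gd d (rr w) * w.2 / rr w ^ 2) ^ 2
          = gd d (rr w) ^ 2 * (w.1 ^ 2 + w.2 ^ 2) / (rr w ^ 2) ^ 2 := by ring
      rw [h4, ← h3]
      field_simp
  unfold H664.H1 H664.psx H664.psy j1
  rw [hg, hg, hg, hr, hc, h1]
  linear_combination (2 / Real.pi) ^ 2 * h2

lemma gp_sum {d : ℝ} (hd : 0 < d) (x : ℝ) : gd d (-x) + gd d x = gd d |x| := by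
  have hneg : ∀ x, x ≤ 0 → gd d x = 0 := fun x hx => gd_eq_zero hd (Or.inl (by linarith))
  rcases le_total x 0 with h | h
  · rw [abs_of_nonpos h, hneg x h, add_zero]
  · rw [abs_of_nonneg h, hneg (-x) (by linarith), zero_add]

lemma H2_eq {d : ℝ} (hd : 0 < d) (w : ℝ × ℝ) : H664.H2 1 d w = j2 d w := by
  have hg : ∀ x, H664.gp d x = gd d x := fun _ => rfl
  have hg' : H664.gp d = gd d := rfl
  have hr : H664.rw w = rr w := rfl
  have hc : H664.cW 1 d w.2 = cd d w.2 := rfl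
  have hu : H664.up d w.2 = ud d w.2 := rfl
  have hu' : H664.us d w.2 = ud' d w.2 := rfl
  unfold H664.H2 H664.phx H664.phy j2 phix phiy
  rw [hg', hr, hc, hu, hu', gp_sum hd]
  ring

theorem stmtJ1' : H664.StmtJ1 := by
  obtain ⟨C, d0, h0, h⟩ := stmtJ1
  refine ⟨C, d0, h0, fun d hd hd1 => ?_⟩
  rw [strp_eq]
  have e : (fun w => H664.H1 1 d w) = j1 d := funext fun w => H1_eq hd w
  rw [e]
  exact h d hd hd1.le

theorem stmtJ2_of (hJ : StmtJ2) : H664.StmtJ2 := by
  obtain ⟨C, d0, h0, h⟩ := hJ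
  refine ⟨C, d0, h0, fun d hd hd1 => ?_⟩
  rw [strp_eq]
  have e : (fun w => H664.H2 1 d w) = j2 d := funext fun w => H2_eq hd w
  rw [e]
  exact h d hd hd1.le

end

end Vale.Agent.P159.T1.H395
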