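import Vale.Agent.P159.T1.H664.NfBf
import Vale.Agent.P159.T1.H777.Lw
import Vale.Agent.P159.T1.H664.DenDefs

/-!
P159 T1, DEN-A: the nice families of the denominator of `StmtArm`.
-/

open Filter Topology MeasureTheory Set

namespace Vale.Agent.P159.T1.H395

open Vale.Agent.P159.H353 Vale.Agent.P159.T1.D Vale.Agent.P159.T1.H664

noncomputable section

/-! ### a general lemma -/

theorem nf_congr {ι : Type*} {l : Filter ι} {t : ι → ℝ} {X X' : ι → Bnd → ℝ}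
    {F F' : Bool → ℝ × ℝ → ℝ} (h : NF l t X F) (hX : ∀ᶠ i in l, X i = X' i)
    (hF : ∀ᵐ z, ∀ d, F d z = F' d z) : NF l t X' F' := by
  obtain ⟨M, hM⟩ := h.bd
  obtain ⟨R, hR⟩ := h.supp
  refine ⟨⟨M, ?_⟩, ⟨R, ?_⟩, ?_⟩
  · filter_upwards [hM, hX] with i h1 h2 e
    rw [← h2]
    exact h1 e
  · filter_upwards [hR, hX] with i h1 h2 e he
    rw [← h2] at he
    exact h1 e he
  · filter_upwards [h.lim, hF] with z h1 h2 u d
    rw [← h2 d]
    refine (h1 u d).congr' ?_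
    filter_upwards [hX] with i h3
    rw [h3]

/-! ### the charge field -/

lemma hasDerivAt_GB (d x : ℝ) : HasDerivAt (GB d) (gp d x) x := by
  have hc := continuous_gp d
  exact intervalIntegral.integral_hasDerivAt_right (hc.intervalIntegrable _ _)
    (hc.stronglyMeasurableAtFilter _ _) hc.continuousAt

lemma hasDerivAt_GA (d x : ℝ) : HasDerivAt (GA d) (gp d (-x)) x := by
  have h1 := ((hasDerivAt_GB d (-x)).comp x (hasDerivAt_neg x)).neg
  have h2 : -(gp d (-x) * -1) = gp d (-x) := by ring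
  rw [h2] at h1
  exact h1

lemma gp_abs_le (d x : ℝ) : |gp d x| ≤ 1 := by
  rw [abs_of_nonneg (H664.gp_nonneg d x)]
  exact H664.gp_le_one d x

lemma gp_vanish {d : ℝ} (hd : 0 < d) (t : ℝ) (ht : 1 / 2 ≤ |t|) : gp d t = 0 := by
  rcases le_total 0 t with h | h
  · rw [abs_of_nonneg h] at ht
    exact gp_eq_zero_right ht
  · exact gp_eq_zero_left hd (by linarith)

lemma gp_vanish' {d : ℝ} (hd : 0 < d) (t : ℝ) (ht : 1 / 2 ≤ |t|) : gp d (-t) = 0 :=
  gp_vanish hd (-t) (by rwa [abs_neg])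

lemma gp_sum' {d : ℝ} (hd : 0 < d) (x : ℝ) : gp d (-x) + gp d x = gp d |x| := by
  rcases le_total x 0 with h | h
  · rw [abs_of_nonpos h, gp_eq_zero_left hd (by linarith : x ≤ 4 * d), add_zero]
  · rw [abs_of_nonneg h, gp_eq_zero_left hd (by linarith : -x ≤ 4 * d), zero_add]

/-- its limit -/
def BpL (v d : ℝ) (k : Bool) (z : ℝ × ℝ) : ℝ :=
  cW v d (lw z).2 * (gp d |(lw z).1| * ((if k then z.2 else z.1) / (z.1 ^ 2 + z.2 ^ 2)))

theorem nf_Bp (Y V : ℝ) {q : ℕ} (hq : 1 ≤ q) (hd : 0 < ang q) :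
    NF atTop (fun a : ℕ => (a : ℝ)) (fun a => H664.Bp Y V q a) (BpL (V / Y) (ang q)) := by
  have hA := nf_Bf Y V hq (hasDerivAt_GA (ang q)) (fun t => gp_abs_le _ _) (gp_vanish' hd)
  have hB := nf_Bf Y V hq (hasDerivAt_GB (ang q)) (fun t => gp_abs_le _ _) (gp_vanish hd)
  refine nf_congr (hA.add tendsto_natCast_atTop_atTop hB) (Eventually.of_forall fun a => rfl)
    (Eventually.of_forall fun z k => ?_)
  unfold BpL
  rw [← gp_sum' hd]
  ring

/-! ### the pieces of the test function -/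

/-- consequences of `StmtPieces` for the pieces at the tip -/
structure Good (F : ℝ × ℝ → ℝ) : Prop where
  smooth : ContDiff ℝ 2 F
  cpt : HasCompactSupport F

lemma phR_eq (v d : ℝ) (z : ℝ × ℝ) : phR v d z = qR v d (z.1 + 1, -z.2) := by
  unfold qR
  congr 1
  ext <;> simp

lemma phL_eq (v d : ℝ) (q : ℕ) (z : ℝ × ℝ) :
    phL v d z = qL v d q (-1 - 1 / (q : ℝ) - z.1, -z.2) := by
  unfold qL
  congr 1
  ext <;> simp

lemma phM_eq (v d : ℝ) (q : ℕ) (z : ℝ × ℝ) :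
    phM v d z = qM v d q (z.1 + 2, -(6 / (5 * (q : ℝ))) - z.2) := by
  unfold qM
  congr 1
  ext <;> simp

lemma good_comp {F G : ℝ × ℝ → ℝ} (h1 : ContDiff ℝ 2 F) (h2 : HasCompactSupport F)
    (φ : (ℝ × ℝ) ≃ₜ (ℝ × ℝ)) (hφ : ContDiff ℝ 2 φ) (hG : G = F ∘ φ) : Good G := by
  rw [hG]
  exact ⟨h1.comp hφ, h2.comp_homeomorph φ⟩

/-- the three affine maps -/
def hoR : (ℝ × ℝ) ≃ₜ (ℝ × ℝ) := (Homeomorph.addRight (1:ℝ)).prodCongr (Homeomorph.neg ℝ)
def hoL (q : ℕ) : (ℝ × ℝ) ≃ₜ (ℝ × ℝ) :=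
  (Homeomorph.subLeft (-1 - 1 / (q : ℝ))).prodCongr (Homeomorph.neg ℝ)
def hoM (q : ℕ) : (ℝ × ℝ) ≃ₜ (ℝ × ℝ) :=
  (Homeomorph.addRight (2:ℝ)).prodCongr (Homeomorph.subLeft (-(6 / (5 * (q : ℝ)))))

lemma hoR_apply (z : ℝ × ℝ) : hoR z = (z.1 + 1, -z.2) := rfl
lemma hoL_apply (q : ℕ) (z : ℝ × ℝ) : hoL q z = (-1 - 1 / (q : ℝ) - z.1, -z.2) := rfl
lemma hoM_apply (q : ℕ) (z : ℝ × ℝ) : hoM q z = (z.1 + 2, -(6 / (5 * (q : ℝ))) - z.2) := rfl

lemma contDiff_hoR : ContDiff ℝ 2 hoR := by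
  have : (hoR : ℝ × ℝ → ℝ × ℝ) = fun z => (z.1 + 1, -z.2) := rfl
  rw [this]; fun_prop

lemma contDiff_hoL (q : ℕ) : ContDiff ℝ 2 (hoL q) := by
  have : (hoL q : ℝ × ℝ → ℝ × ℝ) = fun z => (-1 - 1 / (q : ℝ) - z.1, -z.2) := rfl
  rw [this]; fun_prop

lemma contDiff_hoM (q : ℕ) : ContDiff ℝ 2 (hoM q) := by
  have : (hoM q : ℝ × ℝ → ℝ × ℝ) = fun z => (z.1 + 2, -(6 / (5 * (q : ℝ))) - z.2) := rfl
  rw [this]; fun_prop

/-- the hypothesis on the pieces -/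
def PcAt (v : ℝ) (q : ℕ) : Prop :=
  ∀ F : ℝ × ℝ → ℝ, (F = qR v (ang q) ∨ F = qL v (ang q) q ∨ F = qM v (ang q) q) →
    ContDiff ℝ 2 F ∧ HasCompactSupport F ∧ (∀ z ∈ tsupport F, 0 < z.1 ∧ 0 < z.2) ∧
      (∀ z ∈ tsupport F, z.1 ≤ 3 ∧ z.2 ≤ 3)

variable {v : ℝ} {q : ℕ}

lemma goodR (h : PcAt v q) : Good (phR v (ang q)) := by
  obtain ⟨h1, h2, -, -⟩ := h _ (Or.inl rfl)
  refine good_comp h1 h2 hoR contDiff_hoR ?_
  funext z
  rw [Function.comp, hoR_apply, phR_eq]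

lemma goodL (h : PcAt v q) : Good (phL v (ang q)) := by
  obtain ⟨h1, h2, -, -⟩ := h _ (Or.inr (Or.inl rfl))
  refine good_comp h1 h2 (hoL q) (contDiff_hoL q) ?_
  funext z
  rw [Function.comp, hoL_apply, phL_eq v (ang q) q]

lemma goodM (h : PcAt v q) : Good (phM v (ang q)) := by
  obtain ⟨h1, h2, -, -⟩ := h _ (Or.inr (Or.inr rfl))
  refine good_comp h1 h2 (hoM q) (contDiff_hoM q) ?_
  funext z
  rw [Function.comp, hoM_apply, phM_eq v (ang q) q]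

lemma zero_of_neg {F : ℝ × ℝ → ℝ} (h : ∀ z ∈ tsupport F, 0 < z.1 ∧ 0 < z.2) {z : ℝ × ℝ}
    (hz : z.1 ≤ 0 ∨ z.2 ≤ 0) : F z = 0 := by
  by_contra h0
  have := h z (subset_tsupport F h0)
  rcases hz with hz | hz <;> linarith [this.1, this.2]

/-- the discrete pieces are samples of the pieces at the tip -/
lemma fR_eq (h : PcAt v q) {a : ℕ} (ha : 1 ≤ a) (f : Z2) :
    fR v (ang q) a f = phR v (ang q) (((f.1 : ℝ) + -1) / a, ((f.2 : ℝ) + 2) / a) := by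
  have ha' : (0:ℝ) < a := by exact_mod_cast ha
  obtain ⟨-, -, h3, -⟩ := h _ (Or.inl rfl)
  have e : phR v (ang q) (((f.1 : ℝ) + -1) / a, ((f.2 : ℝ) + 2) / a)
      = qR v (ang q) (((f.1 + a - 1 : ℤ) : ℝ) / a, ((-2 - f.2 : ℤ) : ℝ) / a) := by
    rw [phR_eq]
    congr 1
    ext
    · push_cast; field_simp; ring
    · push_cast; field_simp; ring
  rw [e]
  unfold fR
  split_ifs with hc
  · rfl
  · symm
    apply zero_of_neg h3
    rw [not_and_or] at hc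
    rcases hc with hc | hc
    · left
      apply div_nonpos_of_nonpos_of_nonneg _ ha'.le
      have : f.1 + a - 1 ≤ 0 := by omega
      exact_mod_cast this
    · right
      apply div_nonpos_of_nonpos_of_nonneg _ ha'.le
      have : -2 - f.2 ≤ 0 := by omega
      exact_mod_cast this

lemma fL_eq (h : PcAt v q) {a : ℕ} (ha : 1 ≤ a) (f : Z2) :
    fL v (ang q) q a f = phL v (ang q)
      (((f.1 : ℝ) + (((a / q : ℕ) : ℝ) - (a : ℝ) / q)) / a, ((f.2 : ℝ) + 2) / a) := by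
  have ha' : (0:ℝ) < a := by exact_mod_cast ha
  obtain ⟨-, -, h3, -⟩ := h _ (Or.inr (Or.inl rfl))
  have e : phL v (ang q) (((f.1 : ℝ) + (((a / q : ℕ) : ℝ) - (a : ℝ) / q)) / a, ((f.2 : ℝ) + 2) / a)
      = qL v (ang q) q (((-f.1 - (a + a / q : ℕ) : ℤ) : ℝ) / a, ((-2 - f.2 : ℤ) : ℝ) / a) := by
    rw [phL_eq v (ang q) q]
    generalize a / q = k
    congr 1
    ext
    · push_cast; field_simp; ring
    · push_cast; field_simp; ring
  rw [e]
  unfold fL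
  split_ifs with hc
  · rfl
  · symm
    apply zero_of_neg h3
    rw [not_and_or] at hc
    rcases hc with hc | hc
    · left
      apply div_nonpos_of_nonpos_of_nonneg _ ha'.le
      have : -f.1 - (a + a / q : ℕ) ≤ 0 := by omega
      exact_mod_cast this
    · right
      apply div_nonpos_of_nonpos_of_nonneg _ ha'.le
      have : -2 - f.2 ≤ 0 := by omega
      exact_mod_cast this

lemma fM_eq (h : PcAt v q) {a : ℕ} (ha : 1 ≤ a) (f : Z2) :
    fM v (ang q) q a f = phM v (ang q) (((f.1 : ℝ) + 0) / a,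
      ((f.2 : ℝ) + (2 + ((6 * a / (5 * q) : ℕ) : ℝ) - 6 * (a : ℝ) / (5 * q))) / a) := by
  have ha' : (0:ℝ) < a := by exact_mod_cast ha
  obtain ⟨-, -, h3, -⟩ := h _ (Or.inr (Or.inr rfl))
  have e : phM v (ang q) (((f.1 : ℝ) + 0) / a,
      ((f.2 : ℝ) + (2 + ((6 * a / (5 * q) : ℕ) : ℝ) - 6 * (a : ℝ) / (5 * q))) / a)
      = qM v (ang q) q (((f.1 + 2 * a : ℤ) : ℝ) / a,
      ((-((6 * a / (5 * q) + 2 : ℕ) : ℤ) - f.2 : ℤ) : ℝ) / a) := by
    rw [phM_eq v (ang q) q]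
    generalize 6 * a / (5 * q) = k
    congr 1
    ext
    · push_cast; field_simp; ring
    · push_cast; field_simp; ring
  rw [e]
  unfold fM
  split_ifs with hc
  · rfl
  · symm
    apply zero_of_neg h3
    rw [not_and_or] at hc
    rcases hc with hc | hc
    · left
      apply div_nonpos_of_nonpos_of_nonneg _ ha'.le
      have : f.1 + 2 * a ≤ 0 := by omega
      exact_mod_cast this
    · right
      apply div_nonpos_of_nonpos_of_nonneg _ ha'.le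
      have : -((6 * a / (5 * q) + 2 : ℕ) : ℤ) - f.2 ≤ 0 := by omega
      exact_mod_cast this

end

end Vale.Agent.P159.T1.H395
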