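import Vale.Agent.P159.T1.H395.DenA
import Vale.Agent.P159.T1.H395.Bridge

/-!
P159 T1, DEN-A: nice families of the pieces, and the integrals.
-/

open Filter Topology MeasureTheory Set

namespace Vale.Agent.P159.T1.H395

open Vale.Agent.P159.H353 Vale.Agent.P159.T1.D Vale.Agent.P159.T1.H664

noncomputable section

variable {v : ℝ} {q : ℕ}

/-- the pieces at the tip -/
def pP (v d : ℝ) (i : Fin 3) : ℝ × ℝ → ℝ :=
  if i = 0 then phR v d else if i = 1 then phL v d else phM v d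

lemma good_pP (h : PcAt v q) (i : Fin 3) : Good (pP v (ang q) i) := by
  unfold pP
  split_ifs
  · exact goodR h
  · exact goodL h
  · exact goodM h

/-- the limit of the gradients -/
def PL (v d : ℝ) (i : Fin 3) (k : Bool) (z : ℝ × ℝ) : ℝ :=
  if k then -(fderiv ℝ (pP v d i) z (1, 0)) else fderiv ℝ (pP v d i) z (0, 1)

lemma frac_bound (x : ℕ) {y : ℕ} (_hy : 1 ≤ y) : |((x / y : ℕ) : ℝ) - (x : ℝ) / y| ≤ 1 := by
  have h1 : ((x / y : ℕ) : ℝ) ≤ (x : ℝ) / y := Nat.cast_div_le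
  have h2 : (x : ℝ) / y < ((x / y : ℕ) : ℝ) + 1 := by
    have hy0 : (0:ℝ) < y := by exact_mod_cast _hy
    rw [div_lt_iff₀ hy0]
    have := Nat.lt_mul_of_div_lt (Nat.lt_succ_self (x / y)) (by omega : 0 < y)
    have h3 : ((x : ℕ) : ℝ) < ((x / y + 1) * y : ℕ) := by
      exact_mod_cast this
    push_cast at h3 ⊢
    exact h3
  rw [abs_le]
  constructor <;> linarith

theorem nf_piece (h : PcAt v q) (hq : 1 ≤ q) (i : Fin 3) :
    NF atTop (fun a : ℕ => (a : ℝ)) (fun a => dr (fP v (ang q) q a i)) (PL v (ang q) i) := by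
  have hg := good_pP h i
  have key : ∀ (w : ℕ → ℝ × ℝ) (T : ℝ), (∀ᶠ a : ℕ in atTop, |(w a).1| ≤ T ∧ |(w a).2| ≤ T) →
      (∀ᶠ a : ℕ in atTop, ∀ f : Z2, fP v (ang q) q a i f =
        pP v (ang q) i (((f.1 : ℝ) + (w a).1) / a, ((f.2 : ℝ) + (w a).2) / a)) →
      NF atTop (fun a : ℕ => (a : ℝ)) (fun a => dr (fP v (ang q) q a i)) (PL v (ang q) i) := by
    intro w T hw he
    refine nf_congr (nf_dr tendsto_natCast_atTop_atTop (hg.smooth.of_le (by norm_num)) hg.cpt hw)
      ?_ (Eventually.of_forall fun z k => rfl)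
    filter_upwards [he] with a ha
    congr 1
    funext f
    exact (ha f).symm
  fin_cases i
  · refine key (fun _ => (-1, 2)) 2 (Eventually.of_forall fun _ => by norm_num) ?_
    filter_upwards [eventually_ge_atTop 1] with a ha f
    exact fR_eq h ha f
  · refine key (fun a => (((a / q : ℕ) : ℝ) - (a : ℝ) / q, 2)) 2
      (Eventually.of_forall fun a => ⟨?_, by norm_num⟩) ?_
    · exact (frac_bound a hq).trans (by norm_num)
    · filter_upwards [eventually_ge_atTop 1] with a ha f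
      exact fL_eq h ha f
  · refine key (fun a => (0, 2 + ((6 * a / (5 * q) : ℕ) : ℝ) - 6 * (a : ℝ) / (5 * q))) 3
      (Eventually.of_forall fun a => ⟨by norm_num, ?_⟩) ?_
    · have h1 := frac_bound (6 * a) (y := 5 * q) (by omega)
      push_cast at h1
      rw [abs_le] at h1 ⊢
      simp only
      constructor <;> linarith [h1.1, h1.2]
    · filter_upwards [eventually_ge_atTop 1] with a ha f
      exact fM_eq h ha f

/-! ### energies of the pieces -/

lemma dir_comp {F : ℝ × ℝ → ℝ} (hF : Differentiable ℝ F) (φ : (ℝ × ℝ) ≃ₜ (ℝ × ℝ))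
    (hφ : MeasurePreserving φ volume volume) (s t : ℝ) (hs : s ^ 2 = 1) (ht : t ^ 2 = 1)
    (hd : ∀ z, HasFDerivAt φ ((s • ContinuousLinearMap.fst ℝ ℝ ℝ).prod
      (t • ContinuousLinearMap.snd ℝ ℝ ℝ)) z) :
    ∫ z, (-(fderiv ℝ (F ∘ φ) z (1, 0))) ^ 2 + (fderiv ℝ (F ∘ φ) z (0, 1)) ^ 2 = Dir F := by
  unfold Dir
  rw [← hφ.integral_comp φ.measurableEmbedding
    (fun z => (fderiv ℝ F z (1, 0)) ^ 2 + (fderiv ℝ F z (0, 1)) ^ 2)]
  congr 1
  funext z
  have h1 := ((hF (φ z)).hasFDerivAt.comp z (hd z)).fderiv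
  rw [h1]
  simp only [ContinuousLinearMap.comp_apply, ContinuousLinearMap.prod_apply,
    smul_apply, ContinuousLinearMap.coe_fst', ContinuousLinearMap.coe_snd', smul_eq_mul,
    mul_one, mul_zero]
  have e1 : ((s, 0) : ℝ × ℝ) = s • (1, 0) := by simp
  have e2 : ((0, t) : ℝ × ℝ) = t • (0, 1) := by simp
  rw [e1, e2, map_smul, map_smul, smul_eq_mul, smul_eq_mul, neg_sq, mul_pow, mul_pow, hs, ht,
    one_mul, one_mul]

lemma mp_R : MeasurePreserving hoR volume volume :=
  (measurePreserving_add_right volume (1:ℝ)).prod (Measure.measurePreserving_neg volume)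

lemma mp_L (q : ℕ) : MeasurePreserving (hoL q) volume volume :=
  (Measure.measurePreserving_sub_left volume (-1 - 1 / (q : ℝ))).prod (Measure.measurePreserving_neg volume)

lemma mp_M (q : ℕ) : MeasurePreserving (hoM q) volume volume :=
  (measurePreserving_add_right volume (2:ℝ)).prod
    (Measure.measurePreserving_sub_left volume (-(6 / (5 * (q : ℝ)))))

lemma energy_piece (h : PcAt v q) (i : Fin 3) :
    ∫ z, PL v (ang q) i true z ^ 2 + PL v (ang q) i false z ^ 2 = Dir (zP v (ang q) q i) := by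
  have e : ∀ z, PL v (ang q) i true z ^ 2 + PL v (ang q) i false z ^ 2 =
      (-(fderiv ℝ (pP v (ang q) i) z (1, 0))) ^ 2 + (fderiv ℝ (pP v (ang q) i) z (0, 1)) ^ 2 :=
    fun z => by simp [PL]
  simp only [e]
  fin_cases i
  · have h1 : pP v (ang q) (⟨0, by norm_num⟩ : Fin 3) = qR v (ang q) ∘ hoR := by
      funext z
      rw [Function.comp, hoR_apply, ← phR_eq]
      rfl
    rw [h1]
    refine dir_comp ((h _ (Or.inl rfl)).1.differentiable (by norm_num)) hoR mp_R 1 (-1) (by norm_num)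
      (by norm_num) fun z => ?_
    have h2 : HasFDerivAt (fun z : ℝ × ℝ => (z.1 + 1, -z.2))
      ((ContinuousLinearMap.fst ℝ ℝ ℝ).prod (-ContinuousLinearMap.snd ℝ ℝ ℝ)) z :=
      (hasFDerivAt_fst.add_const 1).prodMk hasFDerivAt_snd.neg
    refine h2.congr_fderiv ?_
    ext <;> simp
  · have h1 : pP v (ang q) (⟨1, by norm_num⟩ : Fin 3) = qL v (ang q) q ∘ hoL q := by
      funext z
      rw [Function.comp, hoL_apply, ← phL_eq]
      rfl
    rw [h1]
    refine dir_comp ((h _ (Or.inr (Or.inl rfl))).1.differentiable (by norm_num)) (hoL q) (mp_L q)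
      (-1) (-1) (by norm_num) (by norm_num) fun z => ?_
    have h2 : HasFDerivAt (fun z : ℝ × ℝ => (-1 - 1 / (q : ℝ) - z.1, -z.2))
      ((-ContinuousLinearMap.fst ℝ ℝ ℝ).prod (-ContinuousLinearMap.snd ℝ ℝ ℝ)) z :=
      (hasFDerivAt_fst.const_sub (-1 - 1 / (q : ℝ))).prodMk hasFDerivAt_snd.neg
    refine h2.congr_fderiv ?_
    ext <;> simp
  · have h1 : pP v (ang q) (⟨2, by norm_num⟩ : Fin 3) = qM v (ang q) q ∘ hoM q := by
      funext z
      rw [Function.comp, hoM_apply, ← phM_eq]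
      rfl
    rw [h1]
    refine dir_comp ((h _ (Or.inr (Or.inr rfl))).1.differentiable (by norm_num)) (hoM q) (mp_M q)
      1 (-1) (by norm_num) (by norm_num) fun z => ?_
    have h2 : HasFDerivAt (fun z : ℝ × ℝ => (z.1 + 2, -(6 / (5 * (q : ℝ))) - z.2))
      ((ContinuousLinearMap.fst ℝ ℝ ℝ).prod (-ContinuousLinearMap.snd ℝ ℝ ℝ)) z :=
      (hasFDerivAt_fst.add_const 2).prodMk (hasFDerivAt_snd.const_sub (-(6 / (5 * (q : ℝ)))))
    refine h2.congr_fderiv ?_
    ext <;> simp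

end

end Vale.Agent.P159.T1.H395
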