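import Vale.Agent.P159.T1.H395.DenA2

/-!
P159 T1, DEN-A: the integrals, and `StmtDenA` from `StmtPieces`.
-/

open Filter Topology MeasureTheory Set

namespace Vale.Agent.P159.T1.H395

open Vale.Agent.P159.H353 Vale.Agent.P159.T1.D Vale.Agent.P159.T1.H664

noncomputable section

variable {v d : ℝ} {q : ℕ}

/-! ### the energy of the charge field -/

lemma integral_cW (v : ℝ) {d : ℝ} (hd : 0 < d) (hd2 : d < 2 * Real.pi) :
    ∫ y in Ioo 0 (2 * Real.pi), cW v d y ^ 2 = v ^ 2 * (1 / d + 1 / (2 * Real.pi - d)) := by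
  have h1 : ∫ y in Ioo 0 (2 * Real.pi), cW v d y ^ 2
      = ∫ y in (0:ℝ)..(2 * Real.pi), cW v d y ^ 2 := by
    rw [intervalIntegral.integral_of_le (by linarith), integral_Ioc_eq_integral_Ioo]
  have e1 : ∀ y ∈ Ioo (0:ℝ) d, cW v d y ^ 2 = (v / d) ^ 2 := fun y hy => by
    unfold cW
    rw [if_pos hy.2]
  have e2 : ∀ y ∈ Ioo d (2 * Real.pi), cW v d y ^ 2 = (v / (2 * Real.pi - d)) ^ 2 := fun y hy => by
    unfold cW
    rw [if_neg (not_lt.2 hy.1.le), neg_sq]
  have i1 : IntervalIntegrable (fun y => cW v d y ^ 2) volume 0 d := by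
    rw [intervalIntegrable_iff_integrableOn_Ioo_of_le hd.le]
    exact (integrableOn_const (by simp)).congr_fun (fun y hy => (e1 y hy).symm) measurableSet_Ioo
  have i2 : IntervalIntegrable (fun y => cW v d y ^ 2) volume d (2 * Real.pi) := by
    rw [intervalIntegrable_iff_integrableOn_Ioo_of_le hd2.le]
    exact (integrableOn_const (by simp)).congr_fun (fun y hy => (e2 y hy).symm) measurableSet_Ioo
  rw [h1, ← intervalIntegral.integral_add_adjacent_intervals i1 i2,
    intervalIntegral.integral_of_le hd.le, intervalIntegral.integral_of_le hd2.le,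
    integral_Ioc_eq_integral_Ioo, integral_Ioc_eq_integral_Ioo,
    setIntegral_congr_fun measurableSet_Ioo e1, setIntegral_congr_fun measurableSet_Ioo e2,
    setIntegral_const, setIntegral_const, Real.volume_real_Ioo_of_le hd.le,
    Real.volume_real_Ioo_of_le hd2.le, smul_eq_mul, smul_eq_mul]
  have : 2 * Real.pi - d ≠ 0 := by linarith
  field_simp
  ring

lemma sq_add_sq_pos {z : ℝ × ℝ} (hz : z.2 ≠ 0) : 0 < z.1 ^ 2 + z.2 ^ 2 := by positivity

theorem energy_Bp (hd : 0 < d) (hd2 : d < 2 * Real.pi) :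
    ∫ z, BpL v d true z ^ 2 + BpL v d false z ^ 2 =
      v ^ 2 * (1 / d + 1 / (2 * Real.pi - d)) * ∫ x : ℝ, gp d |x| ^ 2 := by
  have h1 : ∫ z, BpL v d true z ^ 2 + BpL v d false z ^ 2
      = ∫ z : ℝ × ℝ, (fun w : ℝ × ℝ => gp d |w.1| ^ 2 * cW v d w.2 ^ 2) (H664.lw z) /
        (z.1 ^ 2 + z.2 ^ 2) := by
    apply integral_congr_ae
    filter_upwards [ae_snd_ne] with z hz
    have hr := (sq_add_sq_pos hz).ne'
    simp only [BpL, if_true, Bool.false_eq_true, if_false]
    field_simp
    ring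
  rw [h1, stmtPull (fun w : ℝ × ℝ => gp d |w.1| ^ 2 * cW v d w.2 ^ 2), strp_eq]
  unfold strp
  rw [Measure.volume_eq_prod,
    setIntegral_prod_mul (fun x => gp d |x| ^ 2) (fun y => cW v d y ^ 2), setIntegral_univ,
    integral_cW v hd hd2]
  ring

/-! ### the test function is the sum of its pieces -/

lemma ph_sum (v d : ℝ) (z : ℝ × ℝ) : ph v d z = phR v d z + phL v d z + phM v d z := by
  unfold ph phR phL phM
  by_cases hz : z.2 < 0
  · simp only [hz, true_and, if_true]
    rcases lt_trichotomy (H664.lw z).1 0 with h | h | h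
    · rw [if_pos h, if_neg (not_lt.2 h.le)]
      ring
    · have hw := H777.lw_snd_pos z
      have hr : rw (H664.lw z) = (H664.lw z).2 := by
        unfold rw
        rw [h]
        simp only [ne_eq, OfNat.ofNat_ne_zero, not_false_eq_true, zero_pow, zero_add]
        exact Real.sqrt_sq hw.le
      have ht : thM (H664.lw z) = 1 := by
        unfold thM
        rw [hr, div_self hw.ne']
        exact Real.smoothTransition.one_of_one_le (by norm_num)
      rw [h, ht]
      simp
    · rw [if_neg (not_lt.2 h.le), if_pos h]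
      ring
  · simp [hz]

lemma sum_pP (v d : ℝ) : (fun z => ∑ i, pP v d i z) = ph v d := by
  funext z
  rw [Fin.sum_univ_three, ph_sum]
  rfl

lemma fderiv_sum (h : PcAt v q) (z : ℝ × ℝ) (w : ℝ × ℝ) :
    ∑ i, fderiv ℝ (pP v (ang q) i) z w = fderiv ℝ (ph v (ang q)) z w := by
  rw [← sum_pP, fderiv_fun_sum fun i _ => ((good_pP h i).smooth.differentiable (by norm_num)) z]
  rw [sum_apply]

lemma deriv_gp_zero {d x : ℝ} (hx : 1 / 2 < x) : deriv (gp d) x = 0 := by
  have h : gp d =ᶠ[𝓝 x] fun _ => 0 := by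
    filter_upwards [lt_mem_nhds hx] with y hy using gp_eq_zero_right hy.le
  rw [h.deriv_eq]
  simp

/-- the value of the integrand at a point off the axis -/
lemma diff_eq (h : PcAt v q) (hd : 0 < ang q) (hd1 : ang q < 1 / 100) {z : ℝ × ℝ}
    (hz : z.2 ≠ 0) :
    (BpL v (ang q) true z - ∑ i, PL v (ang q) i true z) ^ 2 +
      (BpL v (ang q) false z - ∑ i, PL v (ang q) i false z) ^ 2 =
      H2 v (ang q) (H664.lw z) / (z.1 ^ 2 + z.2 ^ 2) := by
  have hr := (sq_add_sq_pos hz).ne'
  have s1 : ∑ i, PL v (ang q) i true z = -(fderiv ℝ (ph v (ang q)) z (1, 0)) := by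
    simp only [PL, if_true]
    rw [Finset.sum_neg_distrib, fderiv_sum h]
  have s2 : ∑ i, PL v (ang q) i false z = fderiv ℝ (ph v (ang q)) z (0, 1) := by
    simp only [PL, Bool.false_eq_true, if_false]
    rw [fderiv_sum h]
  rw [s1, s2]
  unfold H2
  rw [gp_sum' hd]
  rcases lt_or_gt_of_ne hz with h1 | h1
  · have h2 := (H777.stmtPhDeriv v (ang q) hd hd1 z h1).hasFDerivAt.fderiv
    rw [h2]
    simp only [BpL, if_true, Bool.false_eq_true, if_false, add_apply, smul_apply,
      ContinuousLinearMap.coe_fst', ContinuousLinearMap.coe_snd', smul_eq_mul, mul_one, mul_zero,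
      add_zero, zero_add]
    field_simp
    ring
  · have h2 : ph v (ang q) =ᶠ[𝓝 z] fun _ => 0 := by
      filter_upwards [(isOpen_Ioi.preimage continuous_snd).mem_nhds (show z.2 ∈ Ioi 0 from h1)]
        with y hy
      have hy' : ¬ y.2 < 0 := not_lt.2 (le_of_lt hy)
      unfold ph
      rw [if_neg hy']
    have h3 : fderiv ℝ (ph v (ang q)) z = 0 := by
      rw [h2.fderiv_eq]
      simp
    have h4 : Real.pi < (H664.lw z).2 := H664.lw_snd_pos h1
    have h5 : 1 / 2 < rw (H664.lw z) := by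
      have h6 : (H664.lw z).2 ≤ rw (H664.lw z) := (le_abs_self _).trans (snd_le (H664.lw z))
      have := Real.pi_gt_three
      linarith
    have h7 : gp (ang q) (rw (H664.lw z)) = 0 := gp_eq_zero_right h5.le
    have h8 : deriv (gp (ang q)) (rw (H664.lw z)) = 0 := deriv_gp_zero h5
    have h9 : phx v (ang q) (H664.lw z) = 0 := by unfold phx; rw [h8]; ring
    have h10 : phy v (ang q) (H664.lw z) = 0 := by unfold phy; rw [h8, h7]; ring
    rw [h3, h9, h10]
    simp only [BpL, if_true, Bool.false_eq_true, if_false, zero_apply, neg_zero, sub_zero]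
    field_simp
    ring

theorem integral_diff (h : PcAt v q) (hd : 0 < ang q) (hd1 : ang q < 1 / 100) :
    ∫ z, (BpL v (ang q) true z - ∑ i, PL v (ang q) i true z) ^ 2 +
      (BpL v (ang q) false z - ∑ i, PL v (ang q) i false z) ^ 2 =
      ∫ w in H664.strp, H2 v (ang q) w := by
  rw [← stmtPull]
  apply integral_congr_ae
  filter_upwards [ae_snd_ne] with z hz using diff_eq h hd hd1 hz

theorem stmtDenA (hP : StmtPieces) : StmtDenA := by
  obtain ⟨q0, hq0, hP⟩ := hP
  refine ⟨max q0 101, le_trans hq0 (le_max_left _ _), fun q hq Y V hY hV => ?_⟩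
  have hq1 : q0 ≤ q := (le_max_left _ _).trans hq
  have hq2 : 101 ≤ q := (le_max_right _ _).trans hq
  have hqpos : 1 ≤ q := by omega
  have hd : 0 < ang q := ang_pos hqpos
  have hd1 : ang q < 1 / 100 := by
    have h1 : (101:ℝ) ≤ q := by exact_mod_cast hq2
    have h2 : (0:ℝ) < q := by linarith
    have h3 : ang q ≤ 1 / (q:ℝ) := by
      unfold ang
      have h5 : 0 ≤ Real.arctan (1 / (q:ℝ)) := Real.arctan_nonneg.2 (by positivity)
      have h6 := Real.le_tan h5 (Real.arctan_lt_pi_div_two _)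
      rwa [Real.tan_arctan] at h6
    have h4 : 1 / (q:ℝ) ≤ 1 / 101 := one_div_le_one_div_of_le (by norm_num) h1
    linarith [show (1:ℝ) / 101 < 1 / 100 by norm_num]
  have h : PcAt (V / Y) q := fun F hF => hP q hq1 (V / Y) F hF
  refine ⟨BpL (V / Y) (ang q), PL (V / Y) (ang q), nf_Bp Y V hqpos hd, nf_piece h hqpos,
    energy_piece h, ?_, integral_diff h hd hd1⟩
  exact energy_Bp hd (by have := Real.pi_gt_three; linarith)

end

end Vale.Agent.P159.T1.H395
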