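import Vale.Agent.P159.T1.H395.ArmInt

/-!
P159 T1, D.ARM.2: the bound of `J₁`.
-/

open MeasureTheory Set

namespace Vale.Agent.P159.T1.H395

noncomputable section

variable {d r : ℝ}

lemma gd_nonneg (d r : ℝ) : 0 ≤ gd d r :=
  mul_nonneg (Real.smoothTransition.nonneg _) (sub_nonneg.2 (Real.smoothTransition.le_one _))

lemma gd_le_one (d r : ℝ) : gd d r ≤ 1 :=
  mul_le_one₀ (Real.smoothTransition.le_one _) (sub_nonneg.2 (Real.smoothTransition.le_one _))
    (sub_le_self _ (Real.smoothTransition.nonneg _))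

lemma gd_eq_one (hd : 0 < d) (h1 : 8 * d ≤ r) (h2 : r ≤ 1 / 4) : gd d r = 1 := by
  unfold gd
  rw [Real.smoothTransition.one_of_one_le, Real.smoothTransition.zero_of_nonpos (by linarith)]
  · simp
  · rw [le_div_iff₀ (by linarith)]; linarith

lemma gd_eq_zero (hd : 0 < d) (h : r ≤ 4 * d ∨ 1 / 2 ≤ r) : gd d r = 0 := by
  unfold gd
  rcases h with h | h
  · rw [Real.smoothTransition.zero_of_nonpos, zero_mul]
    exact div_nonpos_of_nonpos_of_nonneg (by linarith) (by linarith)
  · rw [Real.smoothTransition.one_of_one_le (x := 4 * r - 1) (by linarith), sub_self, mul_zero]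

lemma continuous_gd (d : ℝ) : Continuous (gd d) := by
  unfold gd
  have := Real.smoothTransition.continuous
  fun_prop

lemma rr_nonneg (w : ℝ × ℝ) : 0 ≤ rr w := Real.sqrt_nonneg _

lemma rr_sq (w : ℝ × ℝ) : rr w ^ 2 = w.1 ^ 2 + w.2 ^ 2 := Real.sq_sqrt (by positivity)

lemma continuous_rr : Continuous rr := by unfold rr; fun_prop

lemma abs_fst_le (w : ℝ × ℝ) : |w.1| ≤ rr w := by
  apply Real.abs_le_sqrt
  nlinarith [sq_nonneg w.2]

lemma snd_le (w : ℝ × ℝ) : |w.2| ≤ rr w := by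
  apply Real.abs_le_sqrt
  nlinarith [sq_nonneg w.1]

lemma rr_le (w : ℝ × ℝ) : rr w ≤ |w.1| + |w.2| := by
  apply Real.sqrt_le_iff.2
  refine ⟨by positivity, ?_⟩
  rw [← sq_abs w.1, ← sq_abs w.2]
  nlinarith [abs_nonneg w.1, abs_nonneg w.2]

/-- the half annulus -/
def HA (d : ℝ) : Set (ℝ × ℝ) := {w | 0 < w.2 ∧ 4 * d < rr w ∧ rr w < 1 / 2}

/-- the rectangles -/
def RA (d : ℝ) : Set (ℝ × ℝ) := {x | 8 * d ≤ |x| ∧ |x| ≤ 1 / 8} ×ˢ Ioo 0 d

lemma j1_eq (d : ℝ) (w : ℝ × ℝ) : j1 d w = -(4 / Real.pi) * (cd d w.2 * (gd d |w.1| *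
    (gd d (rr w) * |w.1| / rr w ^ 2))) + 4 / Real.pi ^ 2 * (gd d (rr w) ^ 2 / rr w ^ 2) := by
  unfold j1
  have h : (SignType.sign w.1 : ℝ) * w.1 = |w.1| := sign_mul_self _
  rw [← h]
  ring

/-- the upper bound of the integrand -/
def ub (d : ℝ) (w : ℝ × ℝ) : ℝ :=
  (HA d).indicator (fun w => 4 / Real.pi ^ 2 * (1 / rr w ^ 2 + 1 / rr w)) w -
    (RA d).indicator (fun w => 4 / Real.pi * (1 / d * (|w.1| / (w.1 ^ 2 + d ^ 2)))) w

lemma j1_le_ub (hd : 0 < d) (hd1 : d ≤ 1 / 8) {w : ℝ × ℝ} (hw : w ∈ strp) : j1 d w ≤ ub d w := by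
  have hpi := Real.pi_gt_three
  have hpos : 0 < w.2 := hw.2.1
  have hr0 : 0 < rr w := lt_of_lt_of_le (abs_pos.2 hpos.ne') (snd_le w)
  have hgr0 := gd_nonneg d (rr w)
  have hgr1 := gd_le_one d (rr w)
  have hgx0 := gd_nonneg d |w.1|
  have hgx1 := gd_le_one d |w.1|
  have hx := abs_fst_le w
  rw [j1_eq]
  -- second term
  have h2 : 4 / Real.pi ^ 2 * (gd d (rr w) ^ 2 / rr w ^ 2)
      ≤ (HA d).indicator (fun w => 4 / Real.pi ^ 2 * (1 / rr w ^ 2)) w := by
    by_cases h : w ∈ HA d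
    · rw [indicator_of_mem h]
      gcongr
      exact pow_le_one₀ hgr0 hgr1
    · rw [indicator_of_notMem h]
      have : gd d (rr w) = 0 := gd_eq_zero hd (by
        by_contra hc
        push Not at hc
        exact h ⟨hpos, hc⟩)
      rw [this]
      simp
  -- first term
  have h1 : -(4 / Real.pi) * (cd d w.2 * (gd d |w.1| * (gd d (rr w) * |w.1| / rr w ^ 2)))
      ≤ (HA d).indicator (fun w => 4 / Real.pi ^ 2 * (1 / rr w)) w -
        (RA d).indicator (fun w => 4 / Real.pi * (1 / d * (|w.1| / (w.1 ^ 2 + d ^ 2)))) w := by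
    have hind : 0 ≤ (HA d).indicator (fun w => 4 / Real.pi ^ 2 * (1 / rr w)) w :=
      indicator_nonneg (fun w _ => by have := rr_nonneg w; positivity) w
    by_cases hy : w.2 < d
    · have hc : cd d w.2 = 1 / d := if_pos hy
      rw [hc]
      by_cases h : w ∈ RA d
      · rw [indicator_of_mem h]
        have h8 : 8 * d ≤ |w.1| := h.1.1
        have h18 : |w.1| ≤ 1 / 8 := h.1.2
        have hr14 : rr w ≤ 1 / 4 := by
          have := rr_le w
          rw [abs_of_pos hpos] at this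
          linarith
        rw [gd_eq_one hd h8 (by linarith), gd_eq_one hd (h8.trans hx) hr14, one_mul, one_mul]
        have h3 : |w.1| / (w.1 ^ 2 + d ^ 2) ≤ |w.1| / rr w ^ 2 := by
          rw [rr_sq]
          have : w.2 ^ 2 ≤ d ^ 2 := by gcongr
          gcongr
        have h4 : 4 / Real.pi * (1 / d * (|w.1| / (w.1 ^ 2 + d ^ 2)))
            ≤ 4 / Real.pi * (1 / d * (|w.1| / rr w ^ 2)) := by gcongr
        linarith
      · rw [indicator_of_notMem h, sub_zero]
        refine le_trans ?_ hind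
        have : 0 ≤ 4 / Real.pi * (1 / d * (gd d |w.1| * (gd d (rr w) * |w.1| / rr w ^ 2))) := by
          positivity
        linarith
    · have hc : cd d w.2 = -(1 / (2 * Real.pi - d)) := if_neg hy
      have hnR : w ∉ RA d := fun h => hy h.2.2
      rw [hc, indicator_of_notMem hnR, sub_zero]
      by_cases h : w ∈ HA d
      · rw [indicator_of_mem h]
        have h5 : gd d |w.1| * (gd d (rr w) * |w.1| / rr w ^ 2) ≤ 1 / rr w := by
          calc gd d |w.1| * (gd d (rr w) * |w.1| / rr w ^ 2) ≤ 1 * (1 * rr w / rr w ^ 2) := by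
                gcongr
            _ = 1 / rr w := by field_simp
        have h6 : 1 / (2 * Real.pi - d) ≤ 1 / Real.pi := by
          apply one_div_le_one_div_of_le <;> linarith
        have h7 : 0 ≤ 1 / (2 * Real.pi - d) := by
          have : 0 < 2 * Real.pi - d := by linarith
          positivity
        calc _ = 4 / Real.pi * (1 / (2 * Real.pi - d) *
              (gd d |w.1| * (gd d (rr w) * |w.1| / rr w ^ 2))) := by ring
          _ ≤ 4 / Real.pi * (1 / Real.pi * (1 / rr w)) := by gcongr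
          _ = 4 / Real.pi ^ 2 * (1 / rr w) := by ring
      · rw [indicator_of_notMem h]
        have : gd d (rr w) = 0 := gd_eq_zero hd (by
          by_contra hc
          push Not at hc
          exact h ⟨hpos, hc⟩)
        rw [this]
        simp
  unfold ub
  have e : (HA d).indicator (fun w => 4 / Real.pi ^ 2 * (1 / rr w ^ 2 + 1 / rr w)) w
      = (HA d).indicator (fun w => 4 / Real.pi ^ 2 * (1 / rr w ^ 2)) w +
        (HA d).indicator (fun w => 4 / Real.pi ^ 2 * (1 / rr w)) w := by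
    by_cases h : w ∈ HA d
    · rw [indicator_of_mem h, indicator_of_mem h, indicator_of_mem h]
      ring
    · rw [indicator_of_notMem h, indicator_of_notMem h, indicator_of_notMem h, add_zero]
  rw [e]
  linarith

end

end Vale.Agent.P159.T1.H395
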