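import Vale.Agent.P159.T1.H395.J1

/-!
P159 T1, D.ARM.2: the bound of `J₁`, integrals.
-/

open MeasureTheory Set

namespace Vale.Agent.P159.T1.H395

noncomputable section

variable {d : ℝ}

/-- integral of a radial function over a half annulus -/
theorem integral_half_annulus {a b : ℝ} (ha : 0 < a) (hab : a ≤ b) (k : ℝ → ℝ) :
    ∫ w : ℝ × ℝ, {w : ℝ × ℝ | 0 < w.2 ∧ a < rr w ∧ rr w < b}.indicator (fun w => k (rr w)) w
      = Real.pi * ∫ r in a..b, r * k r := by
  rw [← integral_comp_polarCoord_symm]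
  have h1 : ∀ p ∈ polarCoord.target, p.1 • {w : ℝ × ℝ | 0 < w.2 ∧ a < rr w ∧ rr w < b}.indicator
      (fun w => k (rr w)) (polarCoord.symm p)
      = (Ioo a b ×ˢ Ioo 0 Real.pi).indicator (fun p : ℝ × ℝ => (p.1 * k p.1) * 1) p := by
    intro p hp
    have hp1 : 0 < p.1 := hp.1
    have hp2 : -Real.pi < p.2 ∧ p.2 < Real.pi := hp.2
    have hr : rr (polarCoord.symm p) = p.1 := by
      unfold rr
      rw [polarCoord_symm_apply]
      have : (p.1 * Real.cos p.2) ^ 2 + (p.1 * Real.sin p.2) ^ 2 = p.1 ^ 2 := by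
        have := Real.cos_sq_add_sin_sq p.2
        linear_combination p.1 ^ 2 * this
      simp only [this]
      exact Real.sqrt_sq hp1.le
    have hy : 0 < (polarCoord.symm p).2 ↔ 0 < p.2 := by
      rw [polarCoord_symm_apply]
      simp only
      constructor
      · intro h
        by_contra hc
        push Not at hc
        have := Real.sin_nonpos_of_nonpos_of_neg_pi_le hc hp2.1.le
        nlinarith
      · intro h
        exact mul_pos hp1 (Real.sin_pos_of_pos_of_lt_pi h hp2.2)
    by_cases h : p ∈ Ioo a b ×ˢ Ioo 0 Real.pi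
    · rw [indicator_of_mem h, indicator_of_mem, hr, smul_eq_mul, mul_one]
      exact ⟨hy.2 h.2.1, hr ▸ h.1.1, hr ▸ h.1.2⟩
    · rw [indicator_of_notMem h, indicator_of_notMem, smul_zero]
      rintro ⟨h3, h4, h5⟩
      rw [hr] at h4 h5
      exact h ⟨⟨h4, h5⟩, hy.1 h3, hp2.2⟩
  rw [setIntegral_congr_fun polarCoord.open_target.measurableSet h1,
    setIntegral_indicator (measurableSet_Ioo.prod measurableSet_Ioo)]
  have h2 : polarCoord.target ∩ (Ioo a b ×ˢ Ioo 0 Real.pi) = Ioo a b ×ˢ Ioo 0 Real.pi := by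
    apply inter_eq_right.2
    rintro p ⟨h3, h4⟩
    exact ⟨ha.trans h3.1, by have := Real.pi_pos; linarith [h4.1], h4.2⟩
  rw [h2, Measure.volume_eq_prod, setIntegral_prod_mul (fun r => r * k r) (fun _ => (1:ℝ)),
    setIntegral_const, intervalIntegral.integral_of_le hab, integral_Ioc_eq_integral_Ioo]
  have hv : volume.real (Ioo (0:ℝ) Real.pi) = Real.pi := by
    rw [Real.volume_real_Ioo_of_le Real.pi_pos.le, sub_zero]
  rw [hv, smul_eq_mul, mul_one, mul_comm]

lemma integral_HA (hd : 0 < d) (hd1 : d ≤ 1 / 8) :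
    ∫ w : ℝ × ℝ, (HA d).indicator (fun w => 4 / Real.pi ^ 2 * (1 / rr w ^ 2 + 1 / rr w)) w
      ≤ 4 / Real.pi * Real.log (1 / d) + 2 / Real.pi := by
  have h := integral_half_annulus (a := 4 * d) (b := 1 / 2) (by linarith) (by linarith)
    (fun r => 4 / Real.pi ^ 2 * (1 / r ^ 2 + 1 / r))
  change ∫ w : ℝ × ℝ, {w : ℝ × ℝ | 0 < w.2 ∧ 4 * d < rr w ∧ rr w < 1 / 2}.indicator _ w ≤ _
  rw [h]
  have hpi := Real.pi_pos
  have h1 : ∫ r in (4 * d)..(1 / 2), r * (4 / Real.pi ^ 2 * (1 / r ^ 2 + 1 / r))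
      = ∫ r in (4 * d)..(1 / 2), 4 / Real.pi ^ 2 * (1 / r + 1) := by
    apply intervalIntegral.integral_congr
    intro r hr
    rw [uIcc_of_le (by linarith)] at hr
    have : 0 < r := by linarith [hr.1]
    simp only
    field_simp
  have h2 : ∫ r in (4 * d)..(1 / 2), (1 / r + 1) = Real.log (1 / 2 / (4 * d)) + (1 / 2 - 4 * d) := by
    rw [intervalIntegral.integral_add, integral_one_div_of_pos (by linarith) (by norm_num),
      intervalIntegral.integral_const, smul_eq_mul, mul_one]
    · apply intervalIntegral.intervalIntegrable_one_div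
      · intro r hr
        rw [uIcc_of_le (by linarith)] at hr
        linarith [hr.1]
      · exact continuousOn_id
    · exact intervalIntegrable_const
  rw [h1, intervalIntegral.integral_const_mul, h2]
  have h3 : Real.log (1 / 2 / (4 * d)) ≤ Real.log (1 / d) := by
    apply Real.log_le_log (by positivity)
    rw [div_div, div_le_div_iff₀ (by positivity) (by positivity)]
    linarith
  have h4 : Real.pi * (4 / Real.pi ^ 2 * (Real.log (1 / 2 / (4 * d)) + (1 / 2 - 4 * d)))
      = 4 / Real.pi * (Real.log (1 / 2 / (4 * d)) + (1 / 2 - 4 * d)) := by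
    field_simp
  rw [h4]
  calc _ ≤ 4 / Real.pi * (Real.log (1 / d) + 1 / 2) := by
        gcongr
        linarith
    _ = _ := by ring

end

end Vale.Agent.P159.T1.H395
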